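import Mathlib

/-! # P198 W/Const (TASK; helper names start with wconst_)

With `laplacian_eq_iteratedFDeriv_complexPlane` and `iteratedFDeriv_two_apply`:
`Δ g z = fderiv (fderiv g) z 1 1 + fderiv (fderiv g) z I I`.  For a continuous linear `l : ℂ →L[ℝ] ℝ`
(`Complex.reCLM`, `Complex.imCLM`) and `H` of class `C²` near `z`:
`fderiv (l * H) y v = l v * H y + l y * fderiv H y v` near `z`, hence
`Δ (l * H) z = l z * Δ H z + 2 (l 1 * fderiv H z 1 + l I * fderiv H z I)`.
So `fderiv H z 1 = 0 = fderiv H z I` on the ball, `fderiv H z = 0`, and `IsOpen.is_const_of_fderiv_eq_zero`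
(or `Convex.is_const_of_fderivWithin_eq_zero`). `HarmonicAt f z` is `ContDiffAt ℝ 2 f z ∧ Δ f =ᶠ[𝓝 z] 0`. -/

namespace Vale.Agent.P198
open Set Metric Filter Topology MeasureTheory
open InnerProductSpace Laplacian

theorem wconst_two (l : ℂ →L[ℝ] ℝ) {H : ℂ → ℝ} {z : ℂ} (hH : ContDiffAt ℝ 2 H z) (v : ℂ) :
    fderiv ℝ (fderiv ℝ fun y => l y * H y) z v v =
      l z * fderiv ℝ (fderiv ℝ H) z v v + 2 * (l v * fderiv ℝ H z v) := by
  have h1 : (fderiv ℝ fun y => l y * H y) =ᶠ[𝓝 z] fun y => l y • fderiv ℝ H y + H y • l := by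
    filter_upwards [hH.eventually (by simp)] with y hy
    exact (l.hasFDerivAt.mul (hy.differentiableAt (by simp)).hasFDerivAt).fderiv
  have h2 : HasFDerivAt H (fderiv ℝ H z) z := (hH.differentiableAt (by simp)).hasFDerivAt
  have h3 : HasFDerivAt (fderiv ℝ H) (fderiv ℝ (fderiv ℝ H) z) z :=
    ((hH.fderiv_right (m := 1) (by norm_num)).differentiableAt (by simp)).hasFDerivAt
  have h4 : HasFDerivAt (fun y => l y • fderiv ℝ H y + H y • l) _ z :=
    (l.hasFDerivAt.smul h3).add (h2.smul_const l)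
  rw [h1.fderiv_eq, h4.fderiv]
  simp
  ring

theorem wconst_lap (g : ℂ → ℝ) (z : ℂ) :
    Δ g z = fderiv ℝ (fderiv ℝ g) z 1 1 + fderiv ℝ (fderiv ℝ g) z Complex.I Complex.I := by
  rw [laplacian_eq_iteratedFDeriv_complexPlane]
  simp [iteratedFDeriv_two_apply]

theorem wconst_dir (l : ℂ →L[ℝ] ℝ) {H : ℂ → ℝ} {z : ℂ} (h0 : HarmonicAt H z)
    (h1 : HarmonicAt (fun y => l y * H y) z) :
    l 1 * fderiv ℝ H z 1 + l Complex.I * fderiv ℝ H z Complex.I = 0 := by
  have a0 : Δ H z = 0 := h0.2.self_of_nhds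
  have a1 : Δ (fun y => l y * H y) z = 0 := h1.2.self_of_nhds
  rw [wconst_lap] at a0 a1
  rw [wconst_two l h0.1, wconst_two l h0.1] at a1
  linear_combination a1 / 2 - l z / 2 * a0

theorem const_of_harm {H : ℂ → ℝ} {w : ℂ} {r : ℝ} (h0 : HarmonicOnNhd H (ball w r))
    (h1 : HarmonicOnNhd (fun z => z.re * H z) (ball w r))
    (h2 : HarmonicOnNhd (fun z => z.im * H z) (ball w r)) : ∀ z ∈ ball w r, H z = H w := by
  intro z hz
  refine isOpen_ball.is_const_of_fderiv_eq_zero (𝕜 := ℝ) (convex_ball w r).isPreconnected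
    (fun y hy => ((h0 y hy).1.differentiableAt (by simp)).differentiableWithinAt) (fun y hy => ?_)
    hz (mem_ball_self (pos_of_mem_ball hz))
  have a1 : fderiv ℝ H y 1 = 0 := by simpa using wconst_dir Complex.reCLM (h0 y hy) (h1 y hy)
  have a2 : fderiv ℝ H y Complex.I = 0 := by
    simpa using wconst_dir Complex.imCLM (h0 y hy) (h2 y hy)
  refine ContinuousLinearMap.ext fun v => ?_
  have e : v = v.re • (1 : ℂ) + v.im • Complex.I := by simp
  rw [e, map_add, map_smul, map_smul, a1, a2]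
  simp

end Vale.Agent.P198
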