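import Mathlib

/-! # P198 block W: the squared gradient -/

namespace Vale.Agent.P198

/-- The squared gradient. -/
noncomputable def grad2 (ψ : ℂ → ℝ) (z : ℂ) : ℝ :=
  fderiv ℝ ψ z 1 ^ 2 + fderiv ℝ ψ z Complex.I ^ 2

theorem grad2_nonneg (ψ : ℂ → ℝ) (z : ℂ) : 0 ≤ grad2 ψ z := by
  unfold grad2
  positivity

theorem grad2_le (ψ : ℂ → ℝ) (z : ℂ) : grad2 ψ z ≤ 2 * ‖fderiv ℝ ψ z‖ ^ 2 := by
  have h1 := (fderiv ℝ ψ z).le_opNorm 1
  have h2 := (fderiv ℝ ψ z).le_opNorm Complex.I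
  rw [norm_one, mul_one, Real.norm_eq_abs] at h1
  rw [Complex.norm_I, mul_one, Real.norm_eq_abs] at h2
  have h3 := pow_le_pow_left₀ (abs_nonneg _) h1 2
  have h4 := pow_le_pow_left₀ (abs_nonneg _) h2 2
  rw [sq_abs] at h3 h4
  unfold grad2
  linarith

end Vale.Agent.P198
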