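import Mathlib

/-! # P198 W/Dens (TASK; helper names start with wdens_)

`Besicovitch.ae_tendsto_rnDeriv μ volume`: for a.e. `w`, `μ (closedBall w r) / volume (closedBall w r)` tends to
`μ.rnDeriv volume w` as `r → 0+`, which is finite a.e. (`Measure.rnDeriv_lt_top`).  So for `r < r₁`,
`μ (ball w r) ≤ (c + 1) * π r²` (`Complex.volume_closedBall`); for `r ≥ r₁` use `μ univ ≤ (μ univ / r₁²) r²`. -/

namespace Vale.Agent.P198
open Set Metric Filter Topology MeasureTheory

/-- Finite upper density almost everywhere. -/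
theorem ae_dens (μ : Measure ℂ) [IsFiniteMeasure μ] :
    ∀ᵐ w : ℂ, ∃ A : ℝ, ∀ r > 0, μ.real (ball w r) ≤ A * r ^ 2 := by
  filter_upwards [Besicovitch.ae_tendsto_rnDeriv μ volume, Measure.rnDeriv_lt_top μ volume]
    with w h1 h2
  set c := μ.rnDeriv volume w with hc
  have h3 : ∀ᶠ r in 𝓝[>] (0 : ℝ), μ (closedBall w r) / volume (closedBall w r) < c + 1 :=
    h1.eventually (gt_mem_nhds (ENNReal.lt_add_right h2.ne one_ne_zero))
  obtain ⟨r₁, hr₁, h4⟩ := (nhdsGT_basis (0 : ℝ)).eventually_iff.1 h3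
  refine ⟨(c + 1).toReal * Real.pi + μ.real univ / r₁ ^ 2, fun r hr => ?_⟩
  have a1 : 0 ≤ (c + 1).toReal * Real.pi * r ^ 2 := by positivity
  have a2 : 0 ≤ μ.real univ / r₁ ^ 2 * r ^ 2 := by positivity
  rw [add_mul]
  rcases lt_or_ge r r₁ with h | h
  · have hv : volume (closedBall w r) = ENNReal.ofReal (Real.pi * r ^ 2) := by
      rw [Complex.volume_closedBall, ENNReal.ofReal_mul Real.pi_pos.le, mul_comm,
        ENNReal.ofReal_pow hr.le, ← NNReal.coe_real_pi, ENNReal.ofReal_coe_nnreal]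
    have h5 : μ (closedBall w r) ≤ (c + 1) * volume (closedBall w r) :=
      (ENNReal.div_le_iff_le_mul (Or.inr (ENNReal.add_ne_top.2 ⟨h2.ne, ENNReal.one_ne_top⟩))
        (Or.inl measure_closedBall_lt_top.ne)).1 (h4 ⟨hr, h⟩).le
    have h6 := ENNReal.toReal_mono (ENNReal.mul_ne_top
      (ENNReal.add_ne_top.2 ⟨h2.ne, ENNReal.one_ne_top⟩) measure_closedBall_lt_top.ne)
      ((measure_mono ball_subset_closedBall).trans h5)
    rw [ENNReal.toReal_mul, hv, ENNReal.toReal_ofReal (by positivity), ← mul_assoc] at h6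
    exact le_trans h6 (le_add_of_nonneg_right a2)
  · have h5 : μ.real (ball w r) ≤ μ.real univ := measureReal_mono (subset_univ _)
    have h6 : μ.real univ ≤ μ.real univ / r₁ ^ 2 * r ^ 2 := by
      rw [div_mul_eq_mul_div, le_div_iff₀ (by positivity)]
      exact mul_le_mul_of_nonneg_left (pow_le_pow_left₀ hr₁.le h 2) measureReal_nonneg
    linarith

end Vale.Agent.P198
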