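import Vale.Agent.P198.W.Defs

/-! # P198 W/Half (TASK; helper names start with whalf_)

Model function `ψ₀ y = b y * Real.smoothTransition (1 - y.re)` with `b : ContDiffBump (0 : ℂ)`, `rIn = 1`, `rOut = 2`:
smooth, compact support in `closedBall 0 2`, so `‖fderiv ψ₀‖ ≤ L`.  Put `ψ z = ψ₀ (T (z - w))` with the
continuous linear map `T v = t⁻¹ • (conj e * v)`, `‖T v‖ = ‖v‖ / t`; chain rule gives `‖fderiv ψ z‖ ≤ L / t`,
`grad2_le`, `A = 2 L²`.  `tsupport ψ ⊆ closedBall w (2 t) ⊆ ball w (3 t)` (`closure_minimal`). -/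

namespace Vale.Agent.P198
open Set Metric Filter Topology MeasureTheory

theorem whalf_model : ∃ (φ : ℂ → ℝ) (L : ℝ), ContDiff ℝ 2 φ ∧ (∀ y, ‖y‖ ≤ 1 → y.re ≤ 0 → φ y = 1) ∧
    (∀ y, 1 ≤ y.re → φ y = 0) ∧ (∀ y, 2 ≤ ‖y‖ → φ y = 0) ∧ ∀ y, ‖fderiv ℝ φ y‖ ≤ L := by
  let b : ContDiffBump (0 : ℂ) := ⟨1, 2, one_pos, one_lt_two⟩
  have h1 : ContDiff ℝ 2 fun y : ℂ => b y * Real.smoothTransition (1 - y.re) :=
    b.contDiff.mul (Real.smoothTransition.contDiff.comp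
      (contDiff_const.sub Complex.reCLM.contDiff))
  have h2 : HasCompactSupport fun y : ℂ => b y * Real.smoothTransition (1 - y.re) :=
    b.hasCompactSupport.mul_right
  obtain ⟨L, hL⟩ := (h1.continuous_fderiv (by norm_num)).bounded_above_of_compact_support
    (h2.fderiv (𝕜 := ℝ))
  refine ⟨_, L, h1, fun y k1 k2 => ?_, fun y k => ?_, fun y k => ?_, hL⟩
  · rw [b.one_of_mem_closedBall (mem_closedBall_zero_iff.2 k1),
      Real.smoothTransition.one_of_one_le (by linarith), one_mul]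
  · rw [Real.smoothTransition.zero_of_nonpos (by linarith), mul_zero]
  · rw [b.zero_of_le_dist (by rwa [dist_zero_right]), zero_mul]

/-- A cutoff between a half disc and a half plane. -/
theorem halfcut : ∃ A : ℝ, ∀ (w e : ℂ) (t : ℝ), ‖e‖ = 1 → 0 < t → ∃ ψ : ℂ → ℝ, ContDiff ℝ 2 ψ ∧
    (∀ z, ‖z - w‖ ≤ t → (starRingEnd ℂ e * (z - w)).re ≤ 0 → ψ z = 1) ∧
    (∀ z, t ≤ (starRingEnd ℂ e * (z - w)).re → ψ z = 0) ∧ tsupport ψ ⊆ ball w (3 * t) ∧
    ∀ z, grad2 ψ z ≤ A / t ^ 2 := by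
  obtain ⟨φ, L, h1, h2, h3, h4, h5⟩ := whalf_model
  refine ⟨2 * L ^ 2, fun w e t he ht => ?_⟩
  let T : ℂ →L[ℝ] ℂ := t⁻¹ • ContinuousLinearMap.mul ℝ ℂ (starRingEnd ℂ e)
  have n1 : ∀ v, ‖T v‖ = ‖v‖ / t := fun v => by
    simp [T, he, abs_of_pos ht, div_eq_inv_mul]
  have n2 : ∀ v, (T v).re = (starRingEnd ℂ e * v).re / t := fun v => by
    rw [div_eq_inv_mul]
    exact Complex.smul_re _ _
  have d1 : ∀ z, HasFDerivAt (fun z => φ (T (z - w))) ((fderiv ℝ φ (T (z - w))).comp T) z :=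
    fun z => by
      simpa [Function.comp_def] using ((h1.differentiable (by norm_num)) _).hasFDerivAt.comp z
        (T.hasFDerivAt.comp z ((hasFDerivAt_id z).sub_const w))
  refine ⟨fun z => φ (T (z - w)), h1.comp (T.contDiff.comp (contDiff_id.sub contDiff_const)),
    fun z k1 k2 => h2 _ ?_ ?_, fun z k => h3 _ ?_, ?_, fun z => (grad2_le _ _).trans ?_⟩
  · rwa [n1, div_le_one ht]
  · rw [n2]
    exact div_nonpos_of_nonpos_of_nonneg k2 ht.le
  · rwa [n2, one_le_div ht]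
  · refine (closure_minimal (fun z hz => ?_) (isClosed_closedBall (x := w) (ε := 2 * t))).trans
      (closedBall_subset_ball (by linarith))
    by_contra k
    refine hz (h4 _ ?_)
    rw [mem_closedBall, dist_eq_norm, not_le] at k
    rw [n1, le_div_iff₀ ht]
    exact k.le
  · have b1 : ‖T‖ ≤ 1 / t := T.opNorm_le_bound (by positivity) fun v => by
      rw [n1, one_div_mul_eq_div]
    have b2 : ‖(fderiv ℝ φ (T (z - w))).comp T‖ ≤ L / t := by
      refine ((fderiv ℝ φ (T (z - w))).opNorm_comp_le T).trans ?_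
      rw [div_eq_mul_one_div]
      exact mul_le_mul (h5 _) b1 (norm_nonneg _) ((norm_nonneg _).trans (h5 0))
    rw [(d1 z).fderiv, mul_div_assoc, ← div_pow]
    gcongr

end Vale.Agent.P198
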