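import Mathlib

/-! # P198 W/Hol (TASK; helper names start with whol_)

`hol_or_anti`: on the ball `re F = re a`, `im F = re b` with `a, b` analytic
(`InnerProductSpace.HarmonicOnNhd.exists_analyticOnNhd_ball_re_eq` or the similar Mathlib lemma; grep `re_eq`).
So `F = A + conj B` on the ball with `A = (a + I b) / 2`, `B = (a - I b) / 2` analytic.  Then
`F ^ 2 = A ^ 2 + conj (B ^ 2) + 2 A conj B`, so `re (A conj B)` and `im (A conj B)` are harmonic.
Either compute the Laplacian (`laplacian_eq_iteratedFDeriv_complexPlane`; `Δ (A conj B) = 4 A' conj B'`),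
or: `A conj B = C + conj D` with `C, D` analytic on the ball (same decomposition), differentiate in the directions
`1` and `I`: `A conj B' = conj D'` and `A' conj B = C'`; where `A' ≠ 0` the function `conj B = C' / A'` is
holomorphic, and `B` too, so `B' = 0` there (`HasDerivAt` of `B` and of `conj B`, compare the directions `1`, `I`).
Identity theorem (`AnalyticOnNhd.eq_zero_or_eq_zero_of_mul_eq_zero` or `eqOn_zero_of_preconnected_of_eventuallyEq_zero`):
`A' = 0` or `B' = 0` on the ball, so `A` or `B` is constant there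
(`IsOpen.is_const_of_deriv_eq_zero`), use `AnalyticOnNhd.congr`.  The case `r ≤ 0` is trivial.
`const_of_harm`: `Δ (re * H) = re * Δ H + 2 H_x`; or apply the decomposition: `H = re a`; a short way: by the
product rule for the second derivative along the lines `t ↦ z + t`, `t ↦ z + t I`.  So `fderiv H = 0` on the ball. -/

namespace Vale.Agent.P198
open Set Metric Filter Topology MeasureTheory
open InnerProductSpace Laplacian

theorem whol_dec {F : ℂ → ℂ} {w : ℂ} {r : ℝ}
    (h1 : HarmonicOnNhd (fun z => (F z).re) (ball w r))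
    (h2 : HarmonicOnNhd (fun z => (F z).im) (ball w r)) :
    ∃ A B : ℂ → ℂ, AnalyticOnNhd ℂ A (ball w r) ∧ AnalyticOnNhd ℂ B (ball w r) ∧
      ∀ z ∈ ball w r, F z = A z + starRingEnd ℂ (B z) := by
  obtain ⟨a, ha, ea⟩ := h1.exists_analyticOnNhd_ball_re_eq
  obtain ⟨b, hb, eb⟩ := h2.exists_analyticOnNhd_ball_re_eq
  refine ⟨fun z => (1 / 2 : ℂ) * (a z + Complex.I * b z),
    fun z => (1 / 2 : ℂ) * (a z - Complex.I * b z),
    analyticOnNhd_const.mul (ha.add (analyticOnNhd_const.mul hb)),
    analyticOnNhd_const.mul (ha.sub (analyticOnNhd_const.mul hb)), fun z hz => ?_⟩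
  have e1 : (a z).re = (F z).re := ea hz
  have e2 : (b z).re = (F z).im := eb hz
  apply Complex.ext
  · simp [← e1]; ring
  · simp [← e2]; ring

theorem whol_line {A : ℂ → ℂ} {a z : ℂ} (h : HasDerivAt A a z) (v : ℂ) :
    HasDerivAt (fun t : ℝ => A (z + t * v)) (a * v) 0 := by
  have h1 : HasDerivAt (fun s : ℂ => z + s * v) v ((0 : ℝ) : ℂ) := by
    simpa using ((hasDerivAt_id ((0 : ℝ) : ℂ)).mul_const v).const_add z
  have h2 : HasDerivAt A a (z + ((0 : ℝ) : ℂ) * v) := by simpa using h
  exact (h2.comp ((0 : ℝ) : ℂ) h1).comp_ofReal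

theorem whol_conj {B : ℂ → ℂ} {b z : ℂ} (h : HasDerivAt B b z) (v : ℂ) :
    HasDerivAt (fun t : ℝ => starRingEnd ℂ (B (z + t * v))) (starRingEnd ℂ (b * v)) 0 :=
  (whol_line h v).star

theorem whol_ev {U : Set ℂ} (hU : IsOpen U) {z : ℂ} (hz : z ∈ U) (v : ℂ) :
    ∀ᶠ t : ℝ in 𝓝 0, z + t * v ∈ U := by
  have h : Continuous fun t : ℝ => z + t * v := by fun_prop
  exact h.continuousAt.eventually_mem (hU.mem_nhds (by simpa using hz))

theorem whol_key {U : Set ℂ} (hU : IsOpen U) {A B C D : ℂ → ℂ} (hA : AnalyticOnNhd ℂ A U)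
    (hB : AnalyticOnNhd ℂ B U) (hC : AnalyticOnNhd ℂ C U) (hD : AnalyticOnNhd ℂ D U)
    (e : ∀ z ∈ U, (A z + starRingEnd ℂ (B z)) ^ 2 = C z + starRingEnd ℂ (D z)) :
    ∀ z ∈ U, deriv A z * deriv B z = 0 := by
  have d : ∀ {G : ℂ → ℂ}, AnalyticOnNhd ℂ G U → ∀ z ∈ U, HasDerivAt G (deriv G z) z :=
    fun h z hz => (h z hz).differentiableAt.hasDerivAt
  have s1 : ∀ z ∈ U, 2 * (A z + starRingEnd ℂ (B z)) * deriv A z = deriv C z := by
    intro z hz
    have k : ∀ v : ℂ, 2 * (A z + starRingEnd ℂ (B z)) *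
        (deriv A z * v + starRingEnd ℂ (deriv B z * v)) =
        deriv C z * v + starRingEnd ℂ (deriv D z * v) := by
      intro v
      have l := ((whol_line (d hA z hz) v).add (whol_conj (d hB z hz) v)).pow 2
      have r := (whol_line (d hC z hz) v).add (whol_conj (d hD z hz) v)
      have := l.unique (r.congr_of_eventuallyEq ((whol_ev hU hz v).mono fun t ht => e _ ht))
      simpa using this
    have k1 := k 1
    have k2 := k Complex.I
    simp only [map_mul, map_one, Complex.conj_I] at k1 k2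
    have hI := Complex.I_mul_I
    linear_combination (1 / 2) * k1 - (Complex.I / 2) * k2 +
      ((A z + starRingEnd ℂ (B z)) * (deriv A z - starRingEnd ℂ (deriv B z)) -
        (deriv C z - starRingEnd ℂ (deriv D z)) / 2) * hI
  intro z hz
  have k : ∀ v : ℂ, 2 * (deriv A z * v + starRingEnd ℂ (deriv B z * v)) * deriv A z +
      2 * (A z + starRingEnd ℂ (B z)) * (deriv (deriv A) z * v) = deriv (deriv C) z * v := by
    intro v
    have l := (((whol_line (d hA z hz) v).add (whol_conj (d hB z hz) v)).const_mul 2).mul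
      (whol_line (d hA.deriv z hz) v)
    have r := whol_line (d hC.deriv z hz) v
    have := l.unique (r.congr_of_eventuallyEq ((whol_ev hU hz v).mono fun t ht => s1 _ ht))
    simpa using this
  have k1 := k 1
  have k2 := k Complex.I
  simp only [map_mul, map_one, Complex.conj_I] at k1 k2
  have hI := Complex.I_mul_I
  have k3 : deriv A z * starRingEnd ℂ (deriv B z) = 0 := by
    linear_combination (1 / 4) * k1 + (Complex.I / 4) * k2 -
      ((2 * (deriv A z - starRingEnd ℂ (deriv B z)) * deriv A z +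
        2 * (A z + starRingEnd ℂ (B z)) * deriv (deriv A) z - deriv (deriv C) z) / 4) * hI
  rcases mul_eq_zero.1 k3 with h | h
  · rw [h, zero_mul]
  · rw [(map_eq_zero _).1 h, mul_zero]

theorem whol_const {A : ℂ → ℂ} {w : ℂ} {r : ℝ} (hA : AnalyticOnNhd ℂ A (ball w r))
    (h : ∀ z ∈ ball w r, deriv A z = 0) : ∃ c, ∀ z ∈ ball w r, A z = c :=
  isOpen_ball.exists_is_const_of_deriv_eq_zero (convex_ball w r).isPreconnected
    hA.differentiableOn h

theorem hol_or_anti {F : ℂ → ℂ} {w : ℂ} {r : ℝ}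
    (h1 : HarmonicOnNhd (fun z => (F z).re) (ball w r))
    (h2 : HarmonicOnNhd (fun z => (F z).im) (ball w r))
    (h3 : HarmonicOnNhd (fun z => (F z ^ 2).re) (ball w r))
    (h4 : HarmonicOnNhd (fun z => (F z ^ 2).im) (ball w r)) :
    AnalyticOnNhd ℂ F (ball w r) ∨
      AnalyticOnNhd ℂ (fun z => starRingEnd ℂ (F z)) (ball w r) := by
  obtain ⟨A, B, hA, hB, e1⟩ := whol_dec h1 h2
  obtain ⟨C, D, hC, hD, e2⟩ := whol_dec (F := fun z => F z ^ 2) h3 h4
  have k := whol_key isOpen_ball hA hB hC hD fun z hz => by rw [← e1 z hz, ← e2 z hz]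
  rcases hA.deriv.eq_zero_or_eq_zero_of_mul_eq_zero hB.deriv k (convex_ball w r).isPreconnected
    with h | h
  · obtain ⟨c, hc⟩ := whol_const hA h
    refine Or.inr (AnalyticOnNhd.congr isOpen_ball
      (analyticOnNhd_const (v := starRingEnd ℂ c).add hB) fun z hz => ?_)
    simp [e1 z hz, hc z hz]
  · obtain ⟨c, hc⟩ := whol_const hB h
    refine Or.inl (AnalyticOnNhd.congr isOpen_ball
      (hA.add (analyticOnNhd_const (v := starRingEnd ℂ c))) fun z hz => ?_)
    simp [e1 z hz, hc z hz]

end Vale.Agent.P198
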