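import Mathlib

/-! # P198 W/Ker: radial mollifiers whose differences are Laplacians of test functions -/

namespace Vale.Agent.P198
open Set Metric Filter Topology MeasureTheory
open InnerProductSpace Laplacian
open scoped ContDiff

theorem wker_lap (g : ℂ → ℝ) (z : ℂ) :
    Δ g z = fderiv ℝ (fderiv ℝ g) z 1 1 + fderiv ℝ (fderiv ℝ g) z Complex.I Complex.I := by
  simp [laplacian_eq_iteratedFDeriv_complexPlane, iteratedFDeriv_two_apply]

theorem wker_two {g : ℂ → ℝ} (hg : ContDiff ℝ 2 g) (z v : ℂ) :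
    fderiv ℝ (fderiv ℝ g) z v v = fderiv ℝ (fun y => fderiv ℝ g y v) z v := by
  have h : DifferentiableAt ℝ (fderiv ℝ g) z :=
    (hg.fderiv_right (m := 1) (by norm_num)).differentiable one_ne_zero z
  rw [fderiv_clm_apply h (differentiableAt_const v)]
  simp

theorem wker_sq (z : ℂ) : HasFDerivAt (fun y : ℂ => ‖y‖ ^ 2) (2 • innerSL ℝ z) z :=
  (hasStrictFDerivAt_norm_sq z).hasFDerivAt

theorem wker_rad {G q : ℝ → ℝ} (hG : ∀ t, HasDerivAt G (q t) t) (hq : ContDiff ℝ 1 q) :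
    ContDiff ℝ 2 (fun y : ℂ => G (‖y‖ ^ 2)) ∧
      ∀ z, Δ (fun y : ℂ => G (‖y‖ ^ 2)) z = 4 * (q (‖z‖ ^ 2) + ‖z‖ ^ 2 * deriv q (‖z‖ ^ 2)) := by
  have h0 : ContDiff ℝ 2 G := by
    have e : deriv G = q := funext fun t => (hG t).deriv
    have : ContDiff ℝ (1 + 1) G :=
      contDiff_succ_iff_deriv.2 ⟨fun t => (hG t).differentiableAt, by simp, by rwa [e]⟩
    exact this
  have h1 : ContDiff ℝ 2 (fun y : ℂ => G (‖y‖ ^ 2)) := h0.comp (contDiff_norm_sq ℝ)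
  refine ⟨h1, fun z => ?_⟩
  have h2 : ∀ v : ℂ, (fun y => fderiv ℝ (fun y : ℂ => G (‖y‖ ^ 2)) y v) =
      fun y => q (‖y‖ ^ 2) * (2 * innerSL ℝ v y) := fun v => by
    funext y
    have := ((hG _).comp_hasFDerivAt y (wker_sq y)).fderiv
    rw [show (fun y : ℂ => G (‖y‖ ^ 2)) = G ∘ fun y : ℂ => ‖y‖ ^ 2 from rfl, this]
    simp only [smul_apply, innerSL_apply_apply, smul_eq_mul, nsmul_eq_mul, real_inner_comm y v]
    norm_num
  have h3 : ∀ v : ℂ, fderiv ℝ (fun y => q (‖y‖ ^ 2) * (2 * innerSL ℝ v y)) z v =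
      q (‖z‖ ^ 2) * (2 * ‖v‖ ^ 2) + 4 * deriv q (‖z‖ ^ 2) * (inner ℝ z v) ^ 2 := fun v => by
    have a1 : HasFDerivAt (fun y : ℂ => q (‖y‖ ^ 2)) _ z :=
      ((hq.differentiable one_ne_zero _).hasDerivAt).comp_hasFDerivAt z (wker_sq z)
    rw [(a1.fun_mul ((innerSL ℝ v).hasFDerivAt.const_mul 2)).fderiv]
    simp only [add_apply, smul_apply, innerSL_apply_apply, smul_eq_mul, nsmul_eq_mul,
      real_inner_comm z v, real_inner_self_eq_norm_sq]
    push_cast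
    ring
  have h4 : ‖z‖ ^ 2 = (inner ℝ z 1) ^ 2 + (inner ℝ z Complex.I) ^ 2 := by
    rw [Complex.sq_norm, Complex.normSq_apply]
    simp [Complex.inner]
    ring
  rw [wker_lap, wker_two h1, wker_two h1, h2, h2, h3, h3, norm_one, Complex.norm_I]
  generalize deriv q (‖z‖ ^ 2) = a
  generalize q (‖z‖ ^ 2) = b
  rw [h4]
  ring

theorem wker_step : ∃ k : ℝ → ℝ, ContDiff ℝ ∞ k ∧ (∀ t, t ≤ 1 / 2 → k t = 0) ∧
    (∀ t, 1 ≤ t → k t = 1) ∧ (∀ t, 0 ≤ deriv k t) ∧ (∀ t, 1 ≤ t → deriv k t = 0) ∧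
    ∃ t, 0 ≤ t ∧ deriv k t ≠ 0 := by
  obtain ⟨k, hk⟩ : ∃ k : ℝ → ℝ, k = fun t => Real.smoothTransition (2 * t - 1) := ⟨_, rfl⟩
  have h1 : ContDiff ℝ ∞ k := by
    rw [hk]
    exact Real.smoothTransition.contDiff.comp ((contDiff_const.mul contDiff_id).sub contDiff_const)
  have h2 : ∀ t, t ≤ 1 / 2 → k t = 0 := fun t ht => by
    rw [hk]
    exact Real.smoothTransition.zero_of_nonpos (by linarith)
  have h3 : ∀ t, 1 ≤ t → k t = 1 := fun t ht => by
    rw [hk]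
    exact Real.smoothTransition.one_of_one_le (by linarith)
  refine ⟨k, h1, h2, h3, fun t => Monotone.deriv_nonneg ?_, fun t ht => ?_, ?_⟩
  · rw [hk]
    exact fun a b h => Real.smoothTransition.monotone (by linarith)
  · refine IsLocalMax.deriv_eq_zero (Eventually.of_forall fun y => ?_)
    rw [h3 t ht, hk]
    exact Real.smoothTransition.le_one _
  · obtain ⟨t, ht, e⟩ := exists_deriv_eq_slope k (zero_lt_one' ℝ) h1.continuous.continuousOn
      (h1.differentiable (by simp)).differentiableOn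
    refine ⟨t, ht.1.le, ?_⟩
    rw [e, h3 1 le_rfl, h2 0 (by norm_num)]
    norm_num

theorem wker_quot {k : ℝ → ℝ} (h1 : ContDiff ℝ ∞ k) (h2 : ∀ t, t ≤ 1 / 2 → k t = 0) {a : ℝ}
    (ha : 0 < a) : ContDiff ℝ 1 fun t => k (t / a) / t := by
  refine contDiff_iff_contDiffAt.2 fun t => ?_
  by_cases ht : t = 0
  · refine (contDiffAt_const (c := 0)).congr_of_eventuallyEq ?_
    filter_upwards [Iio_mem_nhds (show t < a / 2 by linarith)] with y hy
    rw [h2 _ (by rw [div_le_iff₀ ha]; linarith [mem_Iio.1 hy]), zero_div]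
  · exact (((h1.of_le (by exact_mod_cast le_top)).comp (contDiff_id.div_const a)).contDiffAt).div
      contDiffAt_id ht

theorem wker_id {k : ℝ → ℝ} (h1 : ContDiff ℝ ∞ k) (h2 : ∀ t, t ≤ 1 / 2 → k t = 0) {a : ℝ}
    (ha : 0 < a) (t : ℝ) :
    k (t / a) / t + t * deriv (fun t => k (t / a) / t) t = deriv k (t / a) / a := by
  have e : (fun t => t * (k (t / a) / t)) = fun t => k (t / a) := by
    funext y
    by_cases hy : y = 0
    · rw [hy, zero_mul, h2 _ (by simp)]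
    · field_simp
  have d1 := (hasDerivAt_id' t).fun_mul
    ((wker_quot h1 h2 ha).differentiable one_ne_zero t).hasDerivAt
  have d2 : HasDerivAt (fun t => k (t / a)) _ t :=
    (h1.differentiable (by simp) (t / a)).hasDerivAt.comp t ((hasDerivAt_id' t).div_const a)
  rw [e] at d1
  have := d1.unique d2
  rw [one_mul] at this
  rw [this]
  ring

theorem wker_theta {k : ℝ → ℝ} (h1 : ContDiff ℝ ∞ k) (h2 : ∀ t, t ≤ 1 / 2 → k t = 0)
    (h3 : ∀ t, 1 ≤ t → k t = 1) {a b : ℝ} (ha : 0 < a) (hb : 0 < b) (c : ℝ) :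
    ∃ Θ : ℂ → ℝ, ContDiff ℝ 2 Θ ∧ (∀ z, max a b ≤ ‖z‖ ^ 2 → Θ z = 0) ∧
      ∀ z, Δ Θ z = c * (deriv k (‖z‖ ^ 2 / a) / a) - c * (deriv k (‖z‖ ^ 2 / b) / b) := by
  have q1 := wker_quot h1 h2 ha
  have q2 := wker_quot h1 h2 hb
  have hq : ContDiff ℝ 1 fun t => c / 4 * (k (t / a) / t - k (t / b) / t) :=
    contDiff_const.mul (q1.sub q2)
  obtain ⟨s1, s2⟩ := wker_rad (G := fun t => ∫ x in max a b..t, c / 4 * (k (x / a) / x - k (x / b) / x))
    (fun t => (hq.continuous.integral_hasStrictDerivAt _ t).hasDerivAt) hq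
  refine ⟨_, s1, fun z hz => ?_, fun z => ?_⟩
  · rw [intervalIntegral.integral_congr (g := fun _ => 0), intervalIntegral.integral_zero]
    intro x hx
    rw [uIcc_of_le hz] at hx
    have := max_le_iff.1 hx.1
    simp only [h3 _ ((one_le_div ha).2 this.1), h3 _ ((one_le_div hb).2 this.2), sub_self, mul_zero]
  · rw [s2, ← wker_id h1 h2 ha, ← wker_id h1 h2 hb,
      deriv_const_mul _ ((q1.sub q2).differentiable one_ne_zero _),
      deriv_fun_sub (q1.differentiable one_ne_zero _) (q2.differentiable one_ne_zero _)]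
    ring

/-- The family of mollifiers. -/
theorem wker_main : ∃ ρ : ℝ → ℂ → ℝ, (∀ s, 0 < s → ContDiff ℝ ∞ (ρ s) ∧ (∀ z, 0 ≤ ρ s z) ∧
    (∀ z, s ≤ ‖z‖ → ρ s z = 0) ∧ ∫ z, ρ s z = 1) ∧ ∀ s t, 0 < s → 0 < t → ∃ Θ : ℂ → ℝ,
      ContDiff ℝ 2 Θ ∧ (∀ z, max s t ≤ ‖z‖ → Θ z = 0) ∧ ∀ z, Δ Θ z = ρ s z - ρ t z := by
  obtain ⟨k, h1, h2, h3, h4, h5, t₀, ht₀, h6⟩ := wker_step
  have d1 : ContDiff ℝ ∞ (deriv k) := (contDiff_infty_iff_deriv.1 h1).2
  have c1 : Continuous fun z : ℂ => deriv k (‖z‖ ^ 2) := d1.continuous.comp (by fun_prop)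
  have hI : 0 < ∫ z : ℂ, deriv k (‖z‖ ^ 2) := by
    refine c1.integral_pos_of_hasCompactSupport_nonneg_nonzero (x := (√t₀ : ℝ)) ?_
      (fun z => h4 _) ?_
    · refine HasCompactSupport.intro (isCompact_closedBall (0 : ℂ) 1) fun z hz => h5 _ ?_
      rw [mem_closedBall_zero_iff, not_le] at hz
      nlinarith
    · rwa [Complex.norm_real, Real.norm_eq_abs, sq_abs, Real.sq_sqrt ht₀]
  obtain ⟨I, hI'⟩ : ∃ I, I = ∫ z : ℂ, deriv k (‖z‖ ^ 2) := ⟨_, rfl⟩
  rw [← hI'] at hI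
  refine ⟨fun s z => I⁻¹ * (deriv k (‖z‖ ^ 2 / s ^ 2) / s ^ 2), fun s hs => ⟨?_, fun z => ?_,
    fun z hz => ?_, ?_⟩, fun s t hs ht => ?_⟩
  · exact contDiff_const.mul ((d1.comp ((contDiff_norm_sq ℝ).div_const _)).div_const _)
  · have := h4 (‖z‖ ^ 2 / s ^ 2)
    positivity
  · simp only [h5 _ ((one_le_div (by positivity)).2 (pow_le_pow_left₀ hs.le hz 2)), zero_div,
      mul_zero]
  · have e := Measure.integral_comp_inv_smul volume (fun z : ℂ => deriv k (‖z‖ ^ 2)) s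
    simp only [norm_smul, norm_inv, Real.norm_eq_abs, div_pow, sq_abs,
      Complex.finrank_real_complex, smul_eq_mul, ← hI', abs_of_pos (pow_pos hs 2),
      ← div_eq_inv_mul] at e
    rw [integral_const_mul, integral_div, e]
    field_simp
  · obtain ⟨Θ, a1, a2, a3⟩ := wker_theta h1 h2 h3 (pow_pos hs 2) (pow_pos ht 2) I⁻¹
    refine ⟨Θ, a1, fun z hz => a2 z (max_le ?_ ?_), a3⟩
    · exact pow_le_pow_left₀ hs.le ((le_max_left _ _).trans hz) 2
    · exact pow_le_pow_left₀ ht.le ((le_max_right _ _).trans hz) 2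

end Vale.Agent.P198
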