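import Vale.Agent.P198.W.Defs

/-! # P198 W/Log (TASK; helper names start with wlog_)

Fix `b : ContDiffBump (0 : ℂ)` with `rIn = 1/2`, `rOut = 1` and a bound `L` for `‖fderiv b‖` (continuous with
compact support); `fderiv b z = 0` if `‖z‖ < 1/2` or `1 < ‖z‖`.  Put `s j = δ' / 4 ^ j`, `δ' = min (δ / 2) (r₀ / 2)`,
`b j z = b ((s j)⁻¹ • (z - w))`, `ψ = N⁻¹ * ∑ j < N, b j`.  The sets `{s j / 2 ≤ ‖z - w‖ ≤ s j}` are disjoint, so at
each `z` at most one `fderiv (b j) z` is nonzero and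
`grad2 ψ z ≤ N⁻² ∑ j, 2 (L / s j)² * indicator (ball w (2 * s j)) 1 z` (`grad2_le`).  Integrate
(`integral_mono_of_nonneg` needs only integrability of the upper bound): `∫ ≤ N⁻² * N * 8 L² |A| ≤ η` for large `N`.
Alternative by induction on `N` (adding one smaller bump each time). -/

namespace Vale.Agent.P198
open Set Metric Filter Topology MeasureTheory

theorem wlog_zero {φ : ℂ → ℝ} {w z : ℂ} {s : ℝ} (h : ∀ z, s ≤ ‖z - w‖ → φ z = 0)
    (hz : s < ‖z - w‖) : fderiv ℝ φ z = 0 := by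
  have h1 : φ =ᶠ[𝓝 z] fun _ => 0 :=
    ((isOpen_lt continuous_const (by fun_prop : Continuous fun z : ℂ => ‖z - w‖)).mem_nhds
      hz |> Filter.eventually_of_mem) fun x hx => h x (le_of_lt hx)
  rw [h1.fderiv_eq, fderiv_fun_const]
  rfl

theorem wlog_bump : ∃ L : ℝ, ∀ (w : ℂ) (s : ℝ), 0 < s → ∃ β : ℂ → ℝ, ContDiff ℝ 2 β ∧ β w = 1 ∧
    (∀ z, s ≤ ‖z - w‖ → β z = 0) ∧ (∀ z, ‖fderiv ℝ β z‖ ≤ L / s) ∧
    ∀ z, ‖z - w‖ < s / 2 → fderiv ℝ β z = 0 := by
  let b : ContDiffBump (0 : ℂ) := ⟨1 / 2, 1, by norm_num, by norm_num⟩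
  have hb : ContDiff ℝ 2 b := b.contDiff
  obtain ⟨L, hL⟩ := (hb.continuous_fderiv (by norm_num)).bounded_above_of_compact_support
    (b.hasCompactSupport.fderiv ℝ)
  refine ⟨L, fun w s hs => ⟨fun z => b (s⁻¹ • (z - w)), hb.comp (by fun_prop), ?_, fun z hz => ?_,
    fun z => ?_, fun z hz => ?_⟩⟩
  · simp only [sub_self, smul_zero]
    exact b.one_of_mem_closedBall (mem_closedBall_self (by norm_num [b]))
  · refine b.zero_of_le_dist ?_
    rw [dist_zero_right, norm_smul, norm_inv, Real.norm_of_nonneg hs.le, ← div_eq_inv_mul]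
    exact (one_le_div hs).2 hz
  · have h1 : HasFDerivAt (fun z : ℂ => s⁻¹ • (z - w)) (s⁻¹ • ContinuousLinearMap.id ℝ ℂ) z :=
      ((hasFDerivAt_id z).sub_const w).const_smul s⁻¹
    have h2 := ((hb.differentiable (by norm_num) (s⁻¹ • (z - w))).hasFDerivAt.comp z h1).fderiv
    change ‖fderiv ℝ (b ∘ fun z : ℂ => s⁻¹ • (z - w)) z‖ ≤ _
    rw [h2, ContinuousLinearMap.comp_smul, ContinuousLinearMap.comp_id, norm_smul, norm_inv,
      Real.norm_of_nonneg hs.le, div_eq_inv_mul]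
    exact mul_le_mul_of_nonneg_left (hL _) (by positivity)
  · have h1 : (fun z => b (s⁻¹ • (z - w))) =ᶠ[𝓝 z] fun _ => 1 :=
      ((isOpen_lt (by fun_prop : Continuous fun z : ℂ => ‖z - w‖) continuous_const).mem_nhds
        hz |> Filter.eventually_of_mem) fun x hx => b.one_of_mem_closedBall (by
          rw [mem_closedBall_zero_iff, norm_smul, norm_inv, Real.norm_of_nonneg hs.le,
            ← div_eq_inv_mul, div_le_iff₀ hs]
          have h2 : ‖x - w‖ < s / 2 := hx
          change _ ≤ 1 / 2 * s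
          linarith)
    rw [h1.fderiv_eq, fderiv_fun_const]
    rfl

theorem wlog_cont {φ : ℂ → ℝ} (h : ContDiff ℝ 2 φ) : Continuous (grad2 φ) := by
  have h1 := h.continuous_fderiv (by norm_num)
  unfold grad2
  fun_prop

theorem wlog_ind (μ : Measure ℂ) [IsFiniteMeasure μ] {w : ℂ} {A r₀ : ℝ}
    (h : ∀ r > 0, r ≤ r₀ → μ.real (ball w r) ≤ A * r ^ 2) : ∃ C : ℝ, ∀ (N : ℕ) (s : ℝ), 0 < s →
      2 * s ≤ r₀ → ∃ φ : ℂ → ℝ, ContDiff ℝ 2 φ ∧ φ w = N ∧ (∀ z, s ≤ ‖z - w‖ → φ z = 0) ∧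
        Integrable (grad2 φ) μ ∧ ∫ z, grad2 φ z ∂μ ≤ N * C := by
  obtain ⟨L, hL⟩ := wlog_bump
  refine ⟨8 * L ^ 2 * A, fun N => ?_⟩
  induction N with
  | zero =>
    intro s _ _
    have h0 : grad2 (fun _ => 0) = fun _ => 0 := by
      funext z
      simp [grad2]
    exact ⟨fun _ => 0, contDiff_const, by simp, fun _ _ => rfl, by rw [h0]; exact integrable_const _,
      by simp [h0]⟩
  | succ N ih =>
    intro s hs hr
    obtain ⟨φ, h1, h2, h3, h4, h5⟩ := ih (s / 4) (by positivity) (by linarith)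
    obtain ⟨β, b1, b2, b3, b4, b5⟩ := hL w s hs
    have hle : ∀ z, grad2 β z ≤ 2 * (L / s) ^ 2 := fun z => (grad2_le β z).trans
      (mul_le_mul_of_nonneg_left (pow_le_pow_left₀ (norm_nonneg _) (b4 z) 2) zero_le_two)
    have hi : Integrable (grad2 β) μ :=
      Integrable.of_bound (wlog_cont b1).aestronglyMeasurable _ (Eventually.of_forall fun z => by
        rw [Real.norm_of_nonneg (grad2_nonneg β z)]
        exact hle z)
    have hI : ∫ z, grad2 β z ∂μ ≤ 8 * L ^ 2 * A := by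
      have h6 : ∫ z, grad2 β z ∂μ ≤ ∫ z, (ball w (2 * s)).indicator (fun _ => 2 * (L / s) ^ 2) z ∂μ := by
        refine integral_mono hi ((integrable_const _).indicator measurableSet_ball) fun z => ?_
        by_cases hz : z ∈ ball w (2 * s)
        · rw [indicator_of_mem hz]
          exact hle z
        · rw [indicator_of_notMem hz]
          rw [mem_ball_iff_norm, not_lt] at hz
          simp [grad2, wlog_zero b3 (show s < ‖z - w‖ by linarith)]
      rw [integral_indicator_const _ measurableSet_ball, smul_eq_mul] at h6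
      refine h6.trans ((mul_le_mul_of_nonneg_right (h _ (by positivity) hr) (by positivity)).trans_eq ?_)
      field_simp
      ring
    have he : grad2 (fun z => β z + φ z) = fun z => grad2 β z + grad2 φ z := by
      funext z
      have h6 := fderiv_fun_add (b1.differentiable (by norm_num) z) (h1.differentiable (by norm_num) z)
      rcases lt_or_ge ‖z - w‖ (s / 2) with hz | hz
      · simp [grad2, h6, b5 z hz]
      · simp [grad2, h6, wlog_zero h3 (show s / 4 < ‖z - w‖ by linarith)]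
    refine ⟨fun z => β z + φ z, b1.add h1, by simp only [b2, h2]; push_cast; ring,
      fun z hz => by simp only [b3 z hz, h3 z (by linarith), add_zero], by rw [he]; exact hi.add h4, ?_⟩
    rw [he, integral_add hi h4]
    push_cast
    linarith

/-- Logarithmic cutoff. -/
theorem logcut (μ : Measure ℂ) [IsFiniteMeasure μ] {w : ℂ} {A r₀ : ℝ} (hr : 0 < r₀)
    (h : ∀ r > 0, r ≤ r₀ → μ.real (ball w r) ≤ A * r ^ 2) {δ η : ℝ} (hδ : 0 < δ) (hη : 0 < η) :
    ∃ ψ : ℂ → ℝ, ContDiff ℝ 2 ψ ∧ ψ w = 1 ∧ tsupport ψ ⊆ ball w δ ∧ ∫ z, grad2 ψ z ∂μ ≤ η := by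
  obtain ⟨C, hC⟩ := wlog_ind μ h
  obtain ⟨N, hN⟩ := exists_nat_gt (max 0 (C / η))
  have hN0 : (0 : ℝ) < N := (le_max_left _ _).trans_lt hN
  have hs : 0 < min (δ / 2) (r₀ / 2) := lt_min (half_pos hδ) (half_pos hr)
  obtain ⟨φ, h1, h2, h3, -, h5⟩ := hC N _ hs (by linarith [min_le_right (δ / 2) (r₀ / 2)])
  refine ⟨fun z => (N : ℝ)⁻¹ * φ z, contDiff_const.mul h1, by simp only [h2, inv_mul_cancel₀ hN0.ne'],
    (closure_minimal (fun z hz => ?_) isClosed_closedBall).trans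
      (closedBall_subset_ball (half_lt_self hδ)), ?_⟩
  · by_contra h6
    rw [mem_closedBall_iff_norm, not_le] at h6
    exact hz (by simp [h3 z ((min_le_left _ _).trans h6.le)])
  · have he : grad2 (fun z => (N : ℝ)⁻¹ * φ z) = fun z => (N : ℝ)⁻¹ ^ 2 * grad2 φ z := by
      funext z
      simp only [grad2, fderiv_const_mul (h1.differentiable (by norm_num) z),
        ContinuousLinearMap.smul_apply, smul_eq_mul]
      ring
    rw [he, integral_const_mul]
    refine (mul_le_mul_of_nonneg_left h5 (by positivity)).trans ?_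
    have h6 := (div_lt_iff₀ hη).1 ((le_max_right _ _).trans_lt hN)
    rw [show (N : ℝ)⁻¹ ^ 2 * (N * C) = C / N by field_simp, div_le_iff₀ hN0]
    linarith

end Vale.Agent.P198
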