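import Vale.Agent.P198.W.Ker

/-! # P198 W/Par: convolution of a kernel with the push-forward of `f m` -/

namespace Vale.Agent.P198
open Set Metric Filter Topology MeasureTheory
open InnerProductSpace Laplacian
open scoped ContDiff

variable {Ω : Type} [MeasurableSpace Ω] {m : Measure Ω} {φ : Ω → ℂ} {f : Ω → ℝ}

/-- The mollified density. -/
noncomputable def wparT (m : Measure Ω) (φ : Ω → ℂ) (f : Ω → ℝ) {F : Type} [NormedAddCommGroup F]
    [NormedSpace ℝ F] (K : ℂ → F) (x : ℂ) : F := ∫ ξ, f ξ • K (φ ξ - x) ∂m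

section
variable {F : Type} [NormedAddCommGroup F] [NormedSpace ℝ F] {K : ℂ → F}

theorem wpar_int (hφ : Measurable φ) (hf : Integrable f m) (hK : Continuous K)
    (hc : HasCompactSupport K) (x : ℂ) : Integrable (fun ξ => f ξ • K (φ ξ - x)) m := by
  obtain ⟨C, hC⟩ := hK.bounded_above_of_compact_support hc
  exact hf.smul_of_top_left (memLp_top_of_bound
    (hK.comp_aestronglyMeasurable (hφ.sub_const x).aestronglyMeasurable) C
    (Eventually.of_forall fun ξ => hC _))

theorem wpar_d (hφ : Measurable φ) (hf : Integrable f m) (hK : ContDiff ℝ ∞ K)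
    (hc : HasCompactSupport K) (x : ℂ) :
    HasFDerivAt (wparT m φ f K) (wparT m φ f (fun z => -fderiv ℝ K z) x) x := by
  have h1 : Continuous fun z => -fderiv ℝ K z := (hK.continuous_fderiv (by simp)).neg
  have h2 : HasCompactSupport fun z => -fderiv ℝ K z := (hc.fderiv ℝ).neg
  obtain ⟨C, hC⟩ := h1.bounded_above_of_compact_support h2
  refine hasFDerivAt_integral_of_dominated_of_fderiv_le (s := univ)
    (F' := fun x ξ => f ξ • -fderiv ℝ K (φ ξ - x)) (bound := fun ξ => ‖f ξ‖ * C) univ_mem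
    (Eventually.of_forall fun y => (wpar_int hφ hf hK.continuous hc y).aestronglyMeasurable)
    (wpar_int hφ hf hK.continuous hc x) (wpar_int hφ hf h1 h2 x).aestronglyMeasurable
    (Eventually.of_forall fun ξ y _ => ?_) (hf.norm.mul_const C)
    (Eventually.of_forall fun ξ y _ => ?_)
  · rw [norm_smul]
    exact mul_le_mul_of_nonneg_left (hC _) (norm_nonneg _)
  · have h3 := ((hK.differentiable (by simp) (φ ξ - y)).hasFDerivAt.comp y
      ((hasFDerivAt_id y).const_sub (φ ξ))).const_smul (f ξ)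
    refine h3.congr_fderiv ?_
    ext
    simp

theorem wpar_fd (hφ : Measurable φ) (hf : Integrable f m) (hK : ContDiff ℝ ∞ K)
    (hc : HasCompactSupport K) :
    fderiv ℝ (wparT m φ f K) = wparT m φ f fun z => -fderiv ℝ K z :=
  funext fun x => (wpar_d hφ hf hK hc x).fderiv

theorem wpar_sm (hK : ContDiff ℝ ∞ K) : ContDiff ℝ ∞ fun z => -fderiv ℝ K z :=
  (hK.fderiv_right (m := ∞) (by simp)).neg

end

theorem wpar_harm (hφ : Measurable φ) (hf : Integrable f m) {K : ℂ → ℝ} (hK : ContDiff ℝ ∞ K)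
    (hc : HasCompactSupport K) : ContDiff ℝ 2 (wparT m φ f K) ∧
      ∀ x, Δ (wparT m φ f K) x = ∫ ξ, f ξ * Δ K (φ ξ - x) ∂m := by
  have k1 := wpar_sm hK
  have c1 : HasCompactSupport fun z => -fderiv ℝ K z := (hc.fderiv ℝ).neg
  have k2 := wpar_sm k1
  have c2 : HasCompactSupport fun z => -fderiv ℝ (fun z => -fderiv ℝ K z) z := (c1.fderiv ℝ).neg
  constructor
  · have : ContDiff ℝ (1 + 1) (wparT m φ f K) := by
      refine contDiff_succ_iff_fderiv.2 ⟨fun x => (wpar_d hφ hf hK hc x).differentiableAt,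
        by simp, ?_⟩
      rw [wpar_fd hφ hf hK hc]
      refine contDiff_one_iff_fderiv.2 ⟨fun x => (wpar_d hφ hf k1 c1 x).differentiableAt, ?_⟩
      rw [wpar_fd hφ hf k1 c1]
      exact continuous_iff_continuousAt.2 fun x => (wpar_d hφ hf k2 c2 x).continuousAt
    exact this
  · intro x
    have i2 := wpar_int hφ hf k2.continuous c2 x
    have e : ∀ v : ℂ, fderiv ℝ (fderiv ℝ (wparT m φ f K)) x v v =
        ∫ ξ, (f ξ • -fderiv ℝ (fun z => -fderiv ℝ K z) (φ ξ - x)) v v ∂m := fun v => by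
      rw [wpar_fd hφ hf hK hc, wpar_fd hφ hf k1 c1, wparT, ContinuousLinearMap.integral_apply i2,
        ContinuousLinearMap.integral_apply (i2.apply_continuousLinearMap v)]
    rw [wker_lap, e, e, ← integral_add
      ((i2.apply_continuousLinearMap 1).apply_continuousLinearMap 1)
      ((i2.apply_continuousLinearMap Complex.I).apply_continuousLinearMap Complex.I)]
    refine integral_congr_ae (Eventually.of_forall fun ξ => ?_)
    simp only [wker_lap, fderiv_fun_neg, neg_neg, smul_apply, smul_eq_mul, mul_add]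

theorem wpar_shift (K : ℂ → ℝ) (x z : ℂ) : Δ (fun y => K (y - x)) z = Δ K (z - x) := by
  have e : fderiv ℝ (fun y => K (y - x)) = fun y => fderiv ℝ K (y - x) :=
    funext fun y => fderiv_comp_sub x
  rw [wker_lap, wker_lap, e, fderiv_comp_sub (f := fderiv ℝ K)]

theorem wpar_cs {K : ℂ → ℝ} {s : ℝ} (h : ∀ z, s ≤ ‖z‖ → K z = 0) : HasCompactSupport K :=
  HasCompactSupport.intro (isCompact_closedBall 0 s) fun z hz =>
    h z (le_of_not_ge fun h' => hz (mem_closedBall_zero_iff.2 h'))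

theorem wpar_zero {w : ℂ} {r : ℝ}
    (h : ∀ ψ : ℂ → ℝ, ContDiff ℝ 2 ψ → tsupport ψ ⊆ ball w r → ∫ ξ, f ξ * Δ ψ (φ ξ) ∂m = 0)
    {K : ℂ → ℝ} (hK : ContDiff ℝ 2 K) {s : ℝ} (h0 : ∀ z, s ≤ ‖z‖ → K z = 0) {x : ℂ}
    (hx : dist x w + s < r) : ∫ ξ, f ξ * Δ K (φ ξ - x) ∂m = 0 := by
  simp only [← wpar_shift]
  refine h _ (hK.comp (contDiff_id.sub contDiff_const)) ?_
  refine (closure_minimal (t := closedBall x s) (fun z hz => ?_) isClosed_closedBall).trans
    (closedBall_subset_ball' (by linarith))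
  rw [mem_closedBall, dist_eq_norm]
  exact le_of_not_ge fun h' => hz (h0 _ h')

end Vale.Agent.P198
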