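import Vale.Agent.P198.W.Par

/-! # P198 W/Weyl: the Weyl lemma -/

namespace Vale.Agent.P198
open Set Metric Filter Topology MeasureTheory
open InnerProductSpace Laplacian
open scoped ContDiff

section
variable {Ω : Type} [MeasurableSpace Ω] {m : Measure Ω} {φ : Ω → ℂ} {f : Ω → ℝ}

theorem wweyl_swap [SFinite m] (hφ : Measurable φ) (hf : Integrable f m) {K ψ : ℂ → ℝ}
    (hK : Continuous K) (hc : HasCompactSupport K) (hψ : Integrable ψ) :
    ∫ x, wparT m φ f K x * ψ x = ∫ ξ, f ξ * (∫ x, K (φ ξ - x) * ψ x) ∂m := by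
  obtain ⟨C, hC⟩ := hK.bounded_above_of_compact_support hc
  have h1 : Integrable (fun p : ℂ × Ω => ψ p.1 * f p.2 * K (φ p.2 - p.1)) (volume.prod m) :=
    (hψ.mul_prod hf).mul_bdd (hK.comp_aestronglyMeasurable
      ((hφ.comp measurable_snd).sub measurable_fst).aestronglyMeasurable)
      (Eventually.of_forall fun _ => hC _)
  have h2 := integral_integral_swap (f := fun x ξ => ψ x * f ξ * K (φ ξ - x)) h1
  simp only [wparT, smul_eq_mul, ← integral_mul_const, ← integral_const_mul]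
  refine Eq.trans ?_ (h2.trans ?_)
  · exact integral_congr_ae (Eventually.of_forall fun x =>
      integral_congr_ae (Eventually.of_forall fun ξ => by ring))
  · exact integral_congr_ae (Eventually.of_forall fun x =>
      integral_congr_ae (Eventually.of_forall fun ξ => by ring))

theorem wweyl_near {K ψ : ℂ → ℝ} {s δ ε : ℝ} (hε : 0 ≤ ε) (hs : s ≤ δ) (h0 : ∀ z, 0 ≤ K z)
    (h1 : ∀ z, s ≤ ‖z‖ → K z = 0) (h2 : ∫ z, K z = 1) (hψ : Continuous ψ)
    (h3 : ∀ ⦃a b : ℂ⦄, dist a b < δ → dist (ψ a) (ψ b) < ε) (y : ℂ) :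
    ‖(∫ x, K (y - x) * ψ x) - ψ y‖ ≤ ε := by
  have := dist_convolution_le (μ := volume) (x₀ := y) (R := δ) (z₀ := ψ y) (g := ψ) hε
    (fun z hz => mem_ball_zero_iff.2 (lt_of_lt_of_le (not_le.1 fun h => hz (h1 z h)) hs)) h0 h2
    hψ.aestronglyMeasurable fun x hx => (h3 hx).le
  rwa [convolution_lsmul_swap, dist_eq_norm] at this

theorem wweyl_lim (hφ : Measurable φ) (hf : Integrable f m) {K ψ : ℂ → ℝ} (hK : Continuous K)
    (hψ : Continuous ψ) (hc : HasCompactSupport ψ) {ε : ℝ}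
    (h : ∀ y, ‖(∫ x, K (y - x) * ψ x) - ψ y‖ ≤ ε) :
    |∫ ξ, f ξ * (∫ x, K (φ ξ - x) * ψ x) ∂m - ∫ ξ, f ξ * ψ (φ ξ) ∂m| ≤ (∫ ξ, ‖f ξ‖ ∂m) * ε := by
  obtain ⟨C, hC⟩ := hψ.bounded_above_of_compact_support hc
  have m1 : StronglyMeasurable fun y : ℂ => ∫ x, K (y - x) * ψ x :=
    StronglyMeasurable.integral_prod_right (f := fun y x => K (y - x) * ψ x)
      (Continuous.stronglyMeasurable (by fun_prop))
  have i1 : Integrable (fun ξ => f ξ * ψ (φ ξ)) m :=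
    hf.mul_bdd (hψ.comp_aestronglyMeasurable hφ.aestronglyMeasurable)
      (Eventually.of_forall fun _ => hC _)
  have i2 : Integrable (fun ξ => f ξ * ∫ x, K (φ ξ - x) * ψ x) m := by
    refine hf.mul_bdd (c := ε + C) (m1.comp_measurable hφ).aestronglyMeasurable
      (Eventually.of_forall fun ξ => ?_)
    linarith [norm_sub_norm_le (∫ x, K (φ ξ - x) * ψ x) (ψ (φ ξ)), h (φ ξ), hC (φ ξ)]
  rw [← integral_sub i2 i1, ← integral_mul_const, ← Real.norm_eq_abs]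
  refine norm_integral_le_of_norm_le (hf.norm.mul_const ε) (Eventually.of_forall fun ξ => ?_)
  rw [← mul_sub, norm_mul]
  exact mul_le_mul_of_nonneg_left (h _) (norm_nonneg _)

theorem wweyl_fin [SFinite m] (hφ : Measurable φ) (hf : Integrable f m) (w : ℂ) (r : ℝ)
    (h : ∀ ψ : ℂ → ℝ, ContDiff ℝ 2 ψ → tsupport ψ ⊆ ball w r → ∫ ξ, f ξ * Δ ψ (φ ξ) ∂m = 0) :
    ∃ H : ℂ → ℝ, HarmonicOnNhd H (ball w r) ∧ ∀ ψ : ℂ → ℝ, Continuous ψ → tsupport ψ ⊆ ball w r →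
      ∫ ξ, f ξ * ψ (φ ξ) ∂m = ∫ z, H z * ψ z := by
  obtain ⟨ρ, hρ, hΘ⟩ := wker_main
  have hc : ∀ s, 0 < s → HasCompactSupport (ρ s) := fun s hs => wpar_cs (hρ s hs).2.2.1
  obtain ⟨H, hH⟩ : ∃ H : ℂ → ℝ, ∀ x s, 0 < s → dist x w + s < r → H x = wparT m φ f (ρ s) x := by
    refine ⟨fun x => wparT m φ f (ρ ((r - dist x w) / 2)) x, fun x t ht hx => ?_⟩
    have hs : 0 < (r - dist x w) / 2 := by linarith
    obtain ⟨Θ, a1, a2, a3⟩ := hΘ _ t hs ht
    have h1 := wpar_zero h a1 a2 (x := x) (by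
      rcases max_choice ((r - dist x w) / 2) t with e | e <;> rw [e] <;> linarith)
    simp only [a3, ← smul_eq_mul, smul_sub] at h1
    rw [integral_sub (wpar_int hφ hf (hρ _ hs).1.continuous (hc _ hs) x)
      (wpar_int hφ hf (hρ t ht).1.continuous (hc t ht) x)] at h1
    exact sub_eq_zero.1 h1
  refine ⟨H, fun x hx => ?_, fun ψ hψ hs => ?_⟩
  · have hx' : dist x w < r := hx
    obtain ⟨s, hs⟩ : ∃ s, s = (r - dist x w) / 2 := ⟨_, rfl⟩
    have hs0 : 0 < s := by linarith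
    have hn : ∀ᶠ y in 𝓝 x, dist y w + s < r := by
      filter_upwards [ball_mem_nhds x hs0] with y hy
      linarith [dist_triangle y x w, mem_ball.1 hy]
    obtain ⟨b1, b2⟩ := wpar_harm hφ hf (hρ s hs0).1 (hc s hs0)
    refine (harmonicAt_congr_nhds (hn.mono fun y hy => hH y s hs0 hy)).2 ⟨b1.contDiffAt, ?_⟩
    filter_upwards [hn] with y hy
    rw [b2]
    exact wpar_zero h ((hρ s hs0).1.of_le (WithTop.coe_le_coe.2 (le_top : (2 : ℕ∞) ≤ ⊤))) (hρ s hs0).2.2.1 hy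
  · obtain ⟨r', hr', hs'⟩ := exists_lt_subset_ball (isClosed_tsupport ψ) hs
    have hk : HasCompactSupport ψ :=
      (isCompact_closedBall w r').of_isClosed_subset (isClosed_tsupport ψ)
        (hs'.trans ball_subset_closedBall)
    have key : ∀ ε > 0, |(∫ z, H z * ψ z) - ∫ ξ, f ξ * ψ (φ ξ) ∂m| ≤ (∫ ξ, ‖f ξ‖ ∂m) * ε := by
      intro ε hε
      obtain ⟨δ, hδ, hu⟩ := Metric.uniformContinuous_iff.1
        (hψ.uniformContinuous_of_tendsto_cocompact hk.is_zero_at_infty) ε hε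
      have hs0 : 0 < min δ (r - r') := lt_min hδ (by linarith)
      obtain ⟨a1, a2, a3, a4⟩ := hρ _ hs0
      have e : ∫ z, H z * ψ z = ∫ z, wparT m φ f (ρ (min δ (r - r'))) z * ψ z := by
        refine integral_congr_ae (Eventually.of_forall fun z => ?_)
        by_cases hz : ψ z = 0
        · simp only [hz, mul_zero]
        · have := mem_ball.1 (hs' (subset_tsupport ψ hz))
          simp only [hH z _ hs0 (by linarith [min_le_right δ (r - r')])]
      rw [e, wweyl_swap hφ hf a1.continuous (hc _ hs0) (hψ.integrable_of_hasCompactSupport hk)]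
      exact wweyl_lim hφ hf a1.continuous hψ hk
        (wweyl_near hε.le (min_le_left _ _) a2 a3 a4 hψ hu)
    have h0 : 0 ≤ ∫ ξ, ‖f ξ‖ ∂m := integral_nonneg fun _ => norm_nonneg _
    generalize ∫ ξ, ‖f ξ‖ ∂m = A at *
    refine (sub_eq_zero.1 (abs_nonpos_iff.1 (le_of_forall_pos_le_add fun ε hε => ?_))).symm
    refine (key (ε / (A + 1)) (by positivity)).trans ?_
    rw [zero_add, ← mul_div_assoc, div_le_iff₀ (by positivity)]
    nlinarith

end

/-- The Weyl lemma. -/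
theorem weyl {Ω : Type} [MeasurableSpace Ω] (m : Measure Ω) {φ : Ω → ℂ} (hφ : Measurable φ)
    {f : Ω → ℝ} (hf : Integrable f m) (w : ℂ) (r : ℝ)
    (h : ∀ ψ : ℂ → ℝ, ContDiff ℝ 2 ψ → tsupport ψ ⊆ ball w r → ∫ ξ, f ξ * Δ ψ (φ ξ) ∂m = 0) :
    ∃ H : ℂ → ℝ, HarmonicOnNhd H (ball w r) ∧ ∀ ψ : ℂ → ℝ, Continuous ψ → tsupport ψ ⊆ ball w r →
      ∫ ξ, f ξ * ψ (φ ξ) ∂m = ∫ z, H z * ψ z := by
  have hs := hf.aefinStronglyMeasurable
  have e : ∀ g : Ω → ℝ, ∫ ξ in hs.sigmaFiniteSet, f ξ * g ξ ∂m = ∫ ξ, f ξ * g ξ ∂m := by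
    intro g
    refine setIntegral_eq_integral_of_ae_compl_eq_zero ?_
    filter_upwards [(ae_restrict_iff' hs.measurableSet.compl).1 hs.ae_eq_zero_compl] with ξ h1 h2
    rw [h1 h2, Pi.zero_apply, zero_mul]
  obtain ⟨H, h1, h2⟩ := wweyl_fin (m := m.restrict hs.sigmaFiniteSet) hφ hf.restrict w r
    fun ψ a b => by rw [e, h ψ a b]
  exact ⟨H, h1, fun ψ a b => by rw [← e, h2 ψ a b]⟩

end Vale.Agent.P198
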